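import Mathlib

/-!
Fourier analysis on the `p`-biased discrete cube `ι → Bool`: expectation `E`, characters `chi`,
coefficients `hat`, Parseval, the fourth-moment Bonami inequality, restrictions (`mix`) and discrete
derivatives (`dif`).
-/

set_option autoImplicit false

namespace Crest.Agent.BF

open Finset

variable {ι : Type*} [Fintype ι] [DecidableEq ι] {p : ℝ}

/-- weight of one coin -/
def w1 (p : ℝ) (b : Bool) : ℝ := if b then p else 1 - p

/-- product weight -/
def wt (p : ℝ) (x : ι → Bool) : ℝ := ∏ i, w1 p (x i)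

/-- expectation -/
def E (p : ℝ) (φ : (ι → Bool) → ℝ) : ℝ := ∑ x, wt p x * φ x

/-- standard deviation of one coin -/
noncomputable def sg (p : ℝ) : ℝ := Real.sqrt (p * (1 - p))

/-- normalised centred coin -/
noncomputable def c1 (p : ℝ) (b : Bool) : ℝ := if b then (1 - p) / sg p else -p / sg p

/-- characters -/
noncomputable def chi (p : ℝ) (S : Finset ι) (x : ι → Bool) : ℝ := ∏ i ∈ S, c1 p (x i)

/-- Fourier coefficients -/
noncomputable def hat (p : ℝ) (f : (ι → Bool) → ℝ) (S : Finset ι) : ℝ :=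
  E p fun x => f x * chi p S x

/-- discrete derivative -/
def dif (i : ι) (f : (ι → Bool) → ℝ) (x : ι → Bool) : ℝ :=
  f (Function.update x i true) - f (Function.update x i false)

/-- coordinates in `J` from `y`, the others from `z` -/
def mix (J : Finset ι) (y z : ι → Bool) : ι → Bool := fun i => if i ∈ J then y i else z i

@[simp] lemma w1_true : w1 p true = p := rfl
@[simp] lemma w1_false : w1 p false = 1 - p := rfl
lemma c1_true : c1 p true = (1 - p) / sg p := rfl
lemma c1_false : c1 p false = -p / sg p := rfl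

lemma w1_nonneg (h0 : 0 ≤ p) (h1 : p ≤ 1) (b : Bool) : 0 ≤ w1 p b := by
  cases b <;> simp <;> linarith

omit [DecidableEq ι] in
lemma wt_nonneg (h0 : 0 ≤ p) (h1 : p ≤ 1) (x : ι → Bool) : 0 ≤ wt p x :=
  prod_nonneg fun _ _ => w1_nonneg h0 h1 _

lemma sg_pos (h0 : 0 < p) (h1 : p < 1) : 0 < sg p :=
  Real.sqrt_pos.2 (mul_pos h0 (by linarith))

lemma sg_sq (h0 : 0 < p) (h1 : p < 1) : sg p ^ 2 = p * (1 - p) :=
  Real.sq_sqrt (mul_pos h0 (by linarith)).le

lemma E_add (φ ψ : (ι → Bool) → ℝ) : E p (fun x => φ x + ψ x) = E p φ + E p ψ := by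
  simp [E, mul_add, sum_add_distrib]

lemma E_sub (φ ψ : (ι → Bool) → ℝ) : E p (fun x => φ x - ψ x) = E p φ - E p ψ := by
  simp [E, mul_sub, sum_sub_distrib]

lemma E_const_mul (a : ℝ) (φ : (ι → Bool) → ℝ) : E p (fun x => a * φ x) = a * E p φ := by
  simp [E, mul_sum, mul_left_comm]

lemma E_mul_const (a : ℝ) (φ : (ι → Bool) → ℝ) : E p (fun x => φ x * a) = E p φ * a := by
  simp [E, sum_mul, mul_assoc]

lemma E_div_const (a : ℝ) (φ : (ι → Bool) → ℝ) : E p (fun x => φ x / a) = E p φ / a := by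
  simp only [div_eq_mul_inv, E_mul_const]

lemma E_sum {α : Type*} (s : Finset α) (φ : α → (ι → Bool) → ℝ) :
    E p (fun x => ∑ a ∈ s, φ a x) = ∑ a ∈ s, E p (φ a) := by
  simp only [E, mul_sum]
  rw [sum_comm]

lemma E_mono (h0 : 0 ≤ p) (h1 : p ≤ 1) {φ ψ : (ι → Bool) → ℝ} (h : ∀ x, φ x ≤ ψ x) :
    E p φ ≤ E p ψ :=
  sum_le_sum fun x _ => mul_le_mul_of_nonneg_left (h x) (wt_nonneg h0 h1 x)

lemma E_nonneg (h0 : 0 ≤ p) (h1 : p ≤ 1) {φ : (ι → Bool) → ℝ} (h : ∀ x, 0 ≤ φ x) :
    0 ≤ E p φ :=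
  sum_nonneg fun x _ => mul_nonneg (wt_nonneg h0 h1 x) (h x)

lemma E_prod (h : ι → Bool → ℝ) :
    E p (fun x : ι → Bool => ∏ i, h i (x i)) = ∏ i, (p * h i true + (1 - p) * h i false) := by
  have := Fintype.prod_sum (fun i (b : Bool) => w1 p b * h i b)
  simp only [Fintype.sum_bool, w1_true, w1_false] at this
  rw [this]
  simp only [E, wt, prod_mul_distrib]

lemma E_const (a : ℝ) : E p (fun _ : ι → Bool => a) = a := by
  have := E_prod (ι := ι) (p := p) fun _ _ => 1
  simp only [prod_const_one, mul_one, add_sub_cancel] at this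
  have h := E_const_mul (p := p) a (fun _ : ι → Bool => (1 : ℝ))
  simpa [this] using h

lemma sq_E_mul_le (h0 : 0 ≤ p) (h1 : p ≤ 1) (φ ψ : (ι → Bool) → ℝ) :
    (E p fun x => φ x * ψ x) ^ 2 ≤ (E p fun x => φ x ^ 2) * E p fun x => ψ x ^ 2 := by
  refine sum_sq_le_sum_mul_sum_of_sq_le_mul univ
    (fun x _ => mul_nonneg (wt_nonneg h0 h1 x) (sq_nonneg _))
    (fun x _ => mul_nonneg (wt_nonneg h0 h1 x) (sq_nonneg _)) fun x _ => le_of_eq ?_
  ring

lemma sq_E_le (h0 : 0 ≤ p) (h1 : p ≤ 1) (φ : (ι → Bool) → ℝ) :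
    (E p φ) ^ 2 ≤ E p fun x => φ x ^ 2 := by
  have := sq_E_mul_le h0 h1 φ (fun _ => 1)
  simpa [E_const] using this

/-- removing the weight of one coordinate -/
lemma sum_erase_eq (i : ι) (ψ : (ι → Bool) → ℝ) :
    ∑ x : ι → Bool, (∏ j ∈ univ.erase i, w1 p (x j)) * ψ x =
      E p fun x => ψ (Function.update x i true) + ψ (Function.update x i false) := by
  have hc : ∀ (x : ι → Bool) b, ∏ j ∈ univ.erase i, w1 p (Function.update x i b j) =
      ∏ j ∈ univ.erase i, w1 p (x j) := fun x b =>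
    prod_congr rfl fun j hj => by rw [Function.update_of_ne (ne_of_mem_erase hj)]
  let τ : (ι → Bool) × Bool ≃ (ι → Bool) × Bool :=
    Function.Involutive.toPerm (fun q => (Function.update q.1 i q.2, q.1 i)) fun q => by simp
  let F : (ι → Bool) × Bool → ℝ := fun q =>
    (∏ j ∈ univ.erase i, w1 p (q.1 j)) * w1 p q.2 * ψ q.1
  have h1 : ∑ q : (ι → Bool) × Bool, F (Function.update q.1 i q.2, q.1 i) = ∑ q, F q :=
    τ.sum_comp F
  simp only [Fintype.sum_prod_type, Fintype.sum_bool, F, hc, w1_true, w1_false] at h1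
  rw [E]
  calc _ = ∑ x : ι → Bool, ((∏ j ∈ univ.erase i, w1 p (x j)) * p * ψ x +
        (∏ j ∈ univ.erase i, w1 p (x j)) * (1 - p) * ψ x) := sum_congr rfl fun x _ => by ring
    _ = _ := by
      rw [← h1]
      refine sum_congr rfl fun x _ => ?_
      rw [wt, ← mul_prod_erase univ (fun j => w1 p (x j)) (mem_univ i)]
      ring

/-- integrating out one coordinate -/
lemma E_update (i : ι) (φ : (ι → Bool) → ℝ) :
    E p φ = E p fun x => p * φ (Function.update x i true) +
      (1 - p) * φ (Function.update x i false) := by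
  have := sum_erase_eq (p := p) i fun x => w1 p (x i) * φ x
  simp only [Function.update_self, w1_true, w1_false] at this
  rw [← this, E]
  refine sum_congr rfl fun x _ => ?_
  rw [wt, ← mul_prod_erase univ (fun j => w1 p (x j)) (mem_univ i)]
  ring

lemma E_comm (φ : (ι → Bool) → (ι → Bool) → ℝ) {q : ℝ} :
    E p (fun x => E q fun y => φ x y) = E q fun y => E p fun x => φ x y := by
  simp only [E, mul_sum]
  rw [sum_comm]
  simp only [mul_left_comm]

lemma E_mix (J : Finset ι) (φ : (ι → Bool) → ℝ) :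
    E p (fun z => E p fun y => φ (mix J y z)) = E p φ := by
  let τ : (ι → Bool) × (ι → Bool) ≃ (ι → Bool) × (ι → Bool) :=
    Function.Involutive.toPerm (fun q => (mix J q.2 q.1, mix J q.1 q.2)) fun q => by
      ext i <;> by_cases h : i ∈ J <;> simp [mix, h]
  let F : (ι → Bool) × (ι → Bool) → ℝ := fun q => wt p q.1 * (wt p q.2 * φ q.1)
  have h1 : ∑ q : (ι → Bool) × (ι → Bool), F (mix J q.2 q.1, mix J q.1 q.2) = ∑ q, F q :=
    τ.sum_comp F
  have h2 : ∀ y z : ι → Bool, wt p (mix J y z) * wt p (mix J z y) = wt p z * wt p y := by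
    intro y z
    simp only [wt, ← prod_mul_distrib]
    refine prod_congr rfl fun i _ => ?_
    by_cases h : i ∈ J <;> simp [mix, h, mul_comm]
  simp only [Fintype.sum_prod_type, F, ← mul_assoc, h2] at h1
  have h3 : E p φ = E p fun x => E p fun _ : ι → Bool => φ x := by simp only [E_const]
  rw [h3]
  simp only [E, mul_sum, ← mul_assoc]
  exact h1

omit [Fintype ι] in
lemma chi_update {S : Finset ι} {i : ι} (hi : i ∉ S) (x : ι → Bool) (b : Bool) :
    chi p S (Function.update x i b) = chi p S x :=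
  prod_congr rfl fun j hj => by rw [Function.update_of_ne (ne_of_mem_of_not_mem hj hi)]

omit [Fintype ι] in
lemma chi_insert {S : Finset ι} {i : ι} (hi : i ∉ S) (x : ι → Bool) :
    chi p (insert i S) x = c1 p (x i) * chi p S x := prod_insert hi

omit [Fintype ι] [DecidableEq ι] in
@[simp] lemma chi_empty (x : ι → Bool) : chi p ∅ x = 1 := rfl

lemma chi_eq_prod (S : Finset ι) (x : ι → Bool) :
    chi p S x = ∏ i, if i ∈ S then c1 p (x i) else 1 := by
  rw [prod_ite_mem, univ_inter, chi]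

lemma E_chi_mul_chi (h0 : 0 < p) (h1 : p < 1) (S T : Finset ι) :
    E p (fun x => chi p S x * chi p T x) = if S = T then 1 else 0 := by
  have hs := sg_pos h0 h1
  have hq := sg_sq h0 h1
  simp only [chi_eq_prod, ← prod_mul_distrib]
  rw [E_prod fun i b => (if i ∈ S then c1 p b else 1) * (if i ∈ T then c1 p b else 1)]
  have key : ∀ i, p * ((if i ∈ S then c1 p true else 1) * (if i ∈ T then c1 p true else 1)) +
      (1 - p) * ((if i ∈ S then c1 p false else 1) * (if i ∈ T then c1 p false else 1)) =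
      if (i ∈ S ↔ i ∈ T) then 1 else 0 := by
    intro i
    by_cases a : i ∈ S <;> by_cases b : i ∈ T <;> simp [a, b, c1_true, c1_false]
    · field_simp; rw [hq]; ring
    · field_simp; ring
    · field_simp; ring
  simp only [key]
  split_ifs with h
  · simp [h]
  · obtain ⟨i, hi⟩ : ∃ i, ¬(i ∈ S ↔ i ∈ T) := by
      by_contra hc; push Not at hc; exact h (Finset.ext hc)
    exact prod_eq_zero (mem_univ i) (if_neg hi)

lemma expansion (h0 : 0 < p) (h1 : p < 1) (f : (ι → Bool) → ℝ) (x : ι → Bool) :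
    f x = ∑ S : Finset ι, hat p f S * chi p S x := by
  have hs := sg_pos h0 h1
  have hq := sg_sq h0 h1
  have key : ∀ a b : Bool, w1 p a * (1 + c1 p a * c1 p b) = if a = b then 1 else 0 := by
    intro a b
    cases a <;> cases b <;>
      simp only [w1_true, w1_false, c1_true, c1_false, if_true, Bool.true_eq_false,
        Bool.false_eq_true, if_false] <;> field_simp <;> rw [hq] <;> ring
  have k2 : ∀ y : ι → Bool, wt p y * ∑ S : Finset ι, chi p S y * chi p S x =
      if y = x then 1 else 0 := by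
    intro y
    have : ∑ S : Finset ι, chi p S y * chi p S x = ∏ i, (1 + c1 p (y i) * c1 p (x i)) := by
      rw [prod_one_add, powerset_univ]
      simp only [chi, prod_mul_distrib]
    rw [this, wt, ← prod_mul_distrib]
    simp only [key]
    split_ifs with h
    · simp [h]
    · obtain ⟨i, hi⟩ := Function.ne_iff.1 h
      exact prod_eq_zero (mem_univ i) (if_neg hi)
  simp only [hat, E, sum_mul]
  rw [sum_comm]
  have : ∀ y : ι → Bool, ∑ S : Finset ι, wt p y * (f y * chi p S y) * chi p S x =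
      f y * if y = x then 1 else 0 := by
    intro y
    rw [← k2, mul_sum, mul_sum]
    exact sum_congr rfl fun S _ => by ring
  simp [this]

lemma E_mul_synth (f : (ι → Bool) → ℝ) (A : Finset (Finset ι)) (c : Finset ι → ℝ) :
    E p (fun x => f x * ∑ R ∈ A, c R * chi p R x) = ∑ R ∈ A, c R * hat p f R := by
  simp only [mul_sum, E_sum, hat, ← E_const_mul]
  refine sum_congr rfl fun R _ => ?_
  congr 1; funext x; ring

lemma parseval (h0 : 0 < p) (h1 : p < 1) (f : (ι → Bool) → ℝ) :
    E p (fun x => f x ^ 2) = ∑ S : Finset ι, hat p f S ^ 2 := by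
  have := E_mul_synth (p := p) f univ (hat p f)
  simp only [← expansion h0 h1 f] at this
  simpa only [sq] using this

lemma hat_synth (h0 : 0 < p) (h1 : p < 1) (A : Finset (Finset ι)) (c : Finset ι → ℝ)
    (S : Finset ι) :
    hat p (fun x => ∑ R ∈ A, c R * chi p R x) S = if S ∈ A then c S else 0 := by
  simp only [hat, sum_mul, E_sum, mul_assoc, E_const_mul, E_chi_mul_chi h0 h1]
  simp

lemma E_synth_sq (h0 : 0 < p) (h1 : p < 1) (A : Finset (Finset ι)) (c : Finset ι → ℝ) :
    E p (fun x => (∑ R ∈ A, c R * chi p R x) ^ 2) = ∑ R ∈ A, c R ^ 2 := by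
  simp only [sq]
  rw [E_mul_synth]
  exact sum_congr rfl fun R hR => by rw [hat_synth h0 h1, if_pos hR]

lemma hat_empty (f : (ι → Bool) → ℝ) : hat p f ∅ = E p f := by simp [hat]

lemma hat_insert (h0 : 0 < p) (h1 : p < 1) (f : (ι → Bool) → ℝ) {R : Finset ι} {i : ι}
    (hi : i ∉ R) : hat p f (insert i R) = sg p * hat p (dif i f) R := by
  have hs := sg_pos h0 h1
  have hq := sg_sq h0 h1
  rw [hat, E_update i, hat, ← E_const_mul]
  congr 1; funext x
  simp only [chi_insert hi, chi_update hi, Function.update_self, c1_true, c1_false, dif]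
  field_simp
  rw [hq]; ring

/-- the one-coordinate inequality behind Bonami's lemma -/
lemma two_point (h0 : 0 < p) (h1 : p < 1) (a b : ℝ) :
    p * (a + (1 - p) * b) ^ 4 + (1 - p) * (a + -p * b) ^ 4 ≤ (a ^ 2 + b ^ 2) ^ 2 := by
  set s := p * (1 - p) with hs
  have hs0 : 0 < s := mul_pos h0 (by linarith)
  have hs1 : s ≤ 1 / 4 := by nlinarith [sq_nonneg (p - 1 / 2)]
  have e : p * (a + (1 - p) * b) ^ 4 + (1 - p) * (a + -p * b) ^ 4 =
      a ^ 4 + 6 * s * a ^ 2 * b ^ 2 + 4 * s * (1 - 2 * p) * a * b ^ 3 + s * (1 - 3 * s) * b ^ 4 := by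
    rw [hs]; ring
  rw [e]
  have h2 : (1 - 2 * p) ^ 2 ≤ 1 := by nlinarith
  have h3 : 4 * s * (1 - 2 * p) * a * b ^ 3 ≤ 2 * s * (a ^ 2 * b ^ 2) + 2 * s * b ^ 4 := by
    have h4 : 0 ≤ s * b ^ 2 * ((1 - 2 * p) * a - b) ^ 2 := by positivity
    have h5 : 0 ≤ s * (a ^ 2 * b ^ 2) * (1 - (1 - 2 * p) ^ 2) :=
      mul_nonneg (by positivity) (by linarith)
    nlinarith
  have h6 : 0 ≤ a ^ 2 * b ^ 2 := by positivity
  have h7 : 0 ≤ b ^ 4 := by positivity
  nlinarith [mul_nonneg h6 (sub_nonneg.2 hs1), mul_nonneg h7 (sub_nonneg.2 hs1),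
    mul_nonneg h7 (sq_nonneg s)]

lemma bonami_noise (h0 : 0 < p) (h1 : p < 1) (A : Finset ι) :
    ∀ c : Finset ι → ℝ,
      E p (fun x => (∑ R ∈ A.powerset, sg p ^ R.card * c R * chi p R x) ^ 4) ≤
        (∑ R ∈ A.powerset, c R ^ 2) ^ 2 := by
  have hs := sg_pos h0 h1
  induction A using Finset.induction_on with
  | empty => intro c; simp [E_const]; ring_nf; rfl
  | insert i A hi ih =>
    intro c
    set g0 : (ι → Bool) → ℝ := fun x => ∑ R ∈ A.powerset, sg p ^ R.card * c R * chi p R x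
      with hg0
    set g1 : (ι → Bool) → ℝ :=
      fun x => ∑ R ∈ A.powerset, sg p ^ R.card * c (insert i R) * chi p R x with hg1
    have hn : ∀ R ∈ A.powerset, i ∉ R := fun R hR h => hi (mem_powerset.1 hR h)
    have e : ∀ (x : ι → Bool) (b : Bool), ∑ R ∈ (insert i A).powerset,
        sg p ^ R.card * c R * chi p R (Function.update x i b) =
        g0 x + sg p * c1 p b * g1 x := by
      intro x b
      rw [sum_powerset_insert hi, hg0, hg1]
      simp only [mul_sum]
      congr 1
      · exact sum_congr rfl fun R hR => by rw [chi_update (hn R hR)]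
      · refine sum_congr rfl fun R hR => ?_
        rw [chi_insert (hn R hR), chi_update (hn R hR), card_insert_of_notMem (hn R hR),
          Function.update_self]
        ring
    have e1 : sg p * c1 p true = 1 - p := by rw [c1_true]; field_simp
    have e2 : sg p * c1 p false = -p := by rw [c1_false]; field_simp
    rw [E_update i, sum_powerset_insert hi]
    simp only [e, e1, e2]
    have i0 := ih c
    have i1 := ih fun R => c (insert i R)
    set C0 := ∑ R ∈ A.powerset, c R ^ 2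
    set C1 := ∑ R ∈ A.powerset, c (insert i R) ^ 2
    have hC0 : 0 ≤ C0 := sum_nonneg fun _ _ => sq_nonneg _
    have hC1 : 0 ≤ C1 := sum_nonneg fun _ _ => sq_nonneg _
    have cs := sq_E_mul_le h0.le h1.le (fun x => g0 x ^ 2) (fun x => g1 x ^ 2)
    simp only [← pow_mul] at cs
    have n0 : 0 ≤ E p fun x => g0 x ^ 4 := E_nonneg h0.le h1.le fun x => by positivity
    have cs2 : (E p fun x => g0 x ^ 2 * g1 x ^ 2) ≤ C0 * C1 := by
      refine le_of_sq_le_sq (cs.trans ?_) (mul_nonneg hC0 hC1) |>.trans le_rfl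
      rw [mul_pow]
      exact mul_le_mul i0 i1 (E_nonneg h0.le h1.le fun x => by
        show 0 ≤ g1 x ^ 4
        positivity) (sq_nonneg _)
    calc _ ≤ E p fun x => g0 x ^ 4 + 2 * (g0 x ^ 2 * g1 x ^ 2) + g1 x ^ 4 :=
          E_mono h0.le h1.le fun x => (two_point h0 h1 _ _).trans (le_of_eq (by ring))
      _ = (E p fun x => g0 x ^ 4) + 2 * (E p fun x => g0 x ^ 2 * g1 x ^ 2) +
          E p fun x => g1 x ^ 4 := by rw [E_add, E_add, E_const_mul]
      _ ≤ C0 ^ 2 + 2 * (C0 * C1) + C1 ^ 2 := by gcongr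
      _ = _ := by ring

/-- Bonami's lemma: fourth moment of a polynomial of degree at most `d` -/
lemma bonami (h0 : 0 < p) (h1 : p < 1) (A : Finset (Finset ι)) (d : ℕ)
    (hA : ∀ R ∈ A, R.card ≤ d) (c : Finset ι → ℝ) :
    E p (fun x => (∑ R ∈ A, c R * chi p R x) ^ 4) ≤
      ((p * (1 - p))⁻¹) ^ (2 * d) * (∑ R ∈ A, c R ^ 2) ^ 2 := by
  have hs := sg_pos h0 h1
  have hq := sg_sq h0 h1
  have h := bonami_noise h0 h1 univ fun R => if R ∈ A then c R / sg p ^ R.card else 0
  have e1 : ∀ x, ∑ R ∈ (univ : Finset ι).powerset,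
      sg p ^ R.card * (if R ∈ A then c R / sg p ^ R.card else 0) * chi p R x =
      ∑ R ∈ A, c R * chi p R x := by
    intro x
    rw [powerset_univ, ← sum_subset (subset_univ A) (fun R _ hR => by simp [hR])]
    refine sum_congr rfl fun R hR => ?_
    rw [if_pos hR]; field_simp
  have hB : 1 ≤ (p * (1 - p))⁻¹ := by
    rw [one_le_inv₀ (mul_pos h0 (by linarith))]; nlinarith
  have e2 : ∑ R ∈ (univ : Finset ι).powerset,
      (if R ∈ A then c R / sg p ^ R.card else 0) ^ 2 ≤
      ((p * (1 - p))⁻¹) ^ d * ∑ R ∈ A, c R ^ 2 := by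
    rw [powerset_univ, ← sum_subset (subset_univ A) (fun R _ hR => by simp [hR]), mul_sum]
    refine sum_le_sum fun R hR => ?_
    rw [if_pos hR, div_pow, ← pow_mul, mul_comm R.card, pow_mul, hq, div_eq_inv_mul, ← inv_pow]
    exact mul_le_mul_of_nonneg_right (pow_le_pow_right₀ hB (hA R hR)) (sq_nonneg _)
  simp only [e1] at h
  refine h.trans ?_
  rw [mul_comm 2 d, pow_mul, ← mul_pow]
  exact pow_le_pow_left₀ (sum_nonneg fun _ _ => sq_nonneg _) e2 2

end Crest.Agent.BF
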