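import Mathlib

/-!
# The Wiener–Ikehara theorem and the prime number theorem (also in arithmetic progressions)

Fejér kernel, Fubini, Riemann–Lebesgue, and a monotonicity argument.
-/

set_option autoImplicit false
open MeasureTheory Filter Topology Set

namespace Crest.Agent.PNT

/-- the Fejér kernel -/
noncomputable def fej (t : ℝ) : ℝ := ∫ y in (0 : ℝ)..1, (1 - y) * Real.cos (t * y)

theorem fej_eq {t : ℝ} (ht : t ≠ 0) : fej t = (1 - Real.cos t) / t ^ 2 := by
  have h : ∀ y ∈ uIcc (0 : ℝ) 1, HasDerivAt (fun y => (1 - y) * Real.sin (t * y) / t - Real.cos (t * y) / t ^ 2)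
      ((1 - y) * Real.cos (t * y)) y := by
    intro y _
    have h1 : HasDerivAt (fun y => t * y) t y := by simpa using (hasDerivAt_id y).const_mul t
    have h2 := ((((hasDerivAt_id' y).const_sub 1).fun_mul h1.sin).div_const t).fun_sub
      (h1.cos.div_const (t ^ 2))
    refine h2.congr_deriv ?_
    field_simp
    ring
  unfold fej
  rw [intervalIntegral.integral_eq_sub_of_hasDerivAt h (by apply Continuous.intervalIntegrable; fun_prop)]
  simp only [mul_one, mul_zero, sub_self, zero_mul, Real.sin_zero, Real.cos_zero]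
  field_simp
  ring

theorem fej_cont : Continuous fej :=
  intervalIntegral.continuous_parametric_intervalIntegral_of_continuous' (by fun_prop) 0 1

theorem fej_nonneg (t : ℝ) : 0 ≤ fej t := by
  rcases eq_or_ne t 0 with rfl | ht
  · refine intervalIntegral.integral_nonneg zero_le_one fun y hy => ?_
    simpa using hy.2
  · rw [fej_eq ht]
    exact div_nonneg (sub_nonneg.2 (Real.cos_le_one t)) (sq_nonneg t)

theorem fej_le_one (t : ℝ) : fej t ≤ 1 := by
  have := intervalIntegral.norm_integral_le_of_norm_le_const (a := 0) (b := 1) (C := 1)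
    (f := fun y => (1 - y) * Real.cos (t * y)) fun y hy => by
      rw [uIoc_of_le zero_le_one] at hy
      rw [Real.norm_eq_abs, abs_mul, abs_of_nonneg (sub_nonneg.2 hy.2)]
      exact mul_le_one₀ (by linarith [hy.1]) (abs_nonneg _) (Real.abs_cos_le_one _)
  simp only [sub_zero, abs_one, mul_one, Real.norm_eq_abs] at this
  exact (le_abs_self _).trans this

theorem fej_le (t : ℝ) : fej t ≤ 4 * (1 + t ^ 2)⁻¹ := by
  rw [← div_eq_mul_inv, le_div_iff₀ (by positivity)]
  have h1 := fej_le_one t
  have h2 : fej t * t ^ 2 ≤ 2 := by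
    rcases eq_or_ne t 0 with rfl | ht
    · simp
    · rw [fej_eq ht, div_mul_cancel₀ _ (pow_ne_zero 2 ht)]
      linarith [Real.neg_one_le_cos t]
  linarith

theorem fej_int : Integrable fej :=
  (integrable_inv_one_add_sq.const_mul 4).mono' fej_cont.aestronglyMeasurable
    (ae_of_all _ fun t => by rw [Real.norm_of_nonneg (fej_nonneg t)]; exact fej_le t)

theorem fej_pos : 0 < ∫ t, fej t := by
  refine integral_pos_of_integrable_nonneg_nonzero (x := Real.pi) fej_cont fej_int fej_nonneg ?_
  rw [fej_eq Real.pi_ne_zero, Real.cos_pi]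
  have := Real.pi_pos
  positivity

theorem fej_int' {l : ℝ} (hl : l ≠ 0) (u : ℝ) : Integrable fun t => fej (l * (t - u)) :=
  (fej_int.comp_mul_left' hl).comp_sub_right u

section key

variable {f : ℝ → ℝ} {B : ℝ} {G : ℂ → ℂ}

theorem lap_int (hf : Measurable f) (hB : ∀ t, |f t| ≤ B) {z : ℂ} (hz : 0 < z.re) :
    IntegrableOn (fun t : ℝ => (f t : ℂ) * Complex.exp (-z * t)) (Ioi 0) :=
  (integrableOn_exp_mul_complex_Ioi (a := -z) (by simpa using hz) 0).bdd_mul (c := B)
    (Complex.measurable_ofReal.comp hf).aestronglyMeasurable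
    (ae_of_all _ fun t => by simpa using hB t)

theorem key_eps (hf : Measurable f) (hB : ∀ t, |f t| ≤ B)
    (hL : ∀ z : ℂ, 0 < z.re → ∫ t in Ioi (0 : ℝ), (f t : ℂ) * Complex.exp (-z * t) = G z)
    (l u : ℝ) {ε : ℝ} (hε : 0 < ε) :
    ∫ t in Ioi (0 : ℝ), f t * Real.exp (-ε * t) * fej (l * (t - u)) =
      ∫ y in Ioc (0 : ℝ) 1, (1 - y) *
        (Complex.exp (Complex.I * (l * u * y : ℝ)) * G (ε + Complex.I * (l * y : ℝ))).re := by
  have h1 : ∀ t, f t * Real.exp (-ε * t) * fej (l * (t - u)) =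
      ∫ y in Ioc (0 : ℝ) 1, f t * Real.exp (-ε * t) * ((1 - y) * Real.cos (l * (t - u) * y)) := by
    intro t
    rw [integral_const_mul, fej, intervalIntegral.integral_of_le zero_le_one]
  simp_rw [h1]
  rw [integral_integral_swap]
  · refine integral_congr_ae (ae_of_all _ fun y => ?_)
    have hz : 0 < ((ε : ℂ) + Complex.I * (l * y : ℝ)).re := by simpa using hε
    simp only
    rw [← hL _ hz, ← integral_const_mul, ← Complex.reCLM_apply,
      ← Complex.reCLM.integral_comp_comm ((lap_int hf hB hz).const_mul _), ← integral_const_mul]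
    refine integral_congr_ae (ae_of_all _ fun t => ?_)
    simp only [Complex.reCLM_apply]
    rw [mul_left_comm (Complex.exp _), ← Complex.exp_add, Complex.re_ofReal_mul, Complex.exp_re]
    have e1 : (Complex.I * (l * u * y : ℝ) + -((ε : ℂ) + Complex.I * (l * y : ℝ)) * t).re = -ε * t := by
      simp
    have e2 : (Complex.I * (l * u * y : ℝ) + -((ε : ℂ) + Complex.I * (l * y : ℝ)) * t).im =
        -(l * (t - u) * y) := by
      simp; ring
    rw [e1, e2, Real.cos_neg]
    ring
  · have h2 : IntegrableOn (fun t : ℝ => B * Real.exp (-ε * t)) (Ioi 0) :=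
      (exp_neg_integrableOn_Ioi 0 hε).const_mul B
    have h3 : IntegrableOn (fun y : ℝ => |1 - y|) (Ioc 0 1) :=
      (Continuous.integrableOn_Icc (by fun_prop)).mono_set Ioc_subset_Icc_self
    refine (h2.mul_prod h3).mono' ?_ (ae_of_all _ fun p => ?_)
    · refine Measurable.aestronglyMeasurable ?_
      unfold Function.uncurry
      fun_prop
    · simp only [Function.uncurry, Real.norm_eq_abs, abs_mul, Real.abs_exp]
      have := hB p.1
      have h4 : |1 - p.2| * (|Real.cos (l * (p.1 - u) * p.2)|) ≤ |1 - p.2| :=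
        mul_le_of_le_one_right (abs_nonneg _) (Real.abs_cos_le_one _)
      have h5 := (abs_nonneg _).trans this
      gcongr

theorem key_lim (hf : Measurable f) (hB : ∀ t, |f t| ≤ B) (hG : ContinuousOn G {z | 0 ≤ z.re})
    (hL : ∀ z : ℂ, 0 < z.re → ∫ t in Ioi (0 : ℝ), (f t : ℂ) * Complex.exp (-z * t) = G z)
    {l : ℝ} (hl : l ≠ 0) (u : ℝ) :
    ∫ t in Ioi (0 : ℝ), f t * fej (l * (t - u)) =
      ∫ y in Ioc (0 : ℝ) 1, (1 - y) *
        (Complex.exp (Complex.I * (l * u * y : ℝ)) * G (Complex.I * (l * y : ℝ))).re := by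
  have T1 : Tendsto (fun ε : ℝ => ∫ t in Ioi (0 : ℝ), f t * Real.exp (-ε * t) * fej (l * (t - u))) (𝓝[>] 0)
      (𝓝 (∫ t in Ioi (0 : ℝ), f t * fej (l * (t - u)))) := by
    refine tendsto_integral_filter_of_dominated_convergence (fun t => B * fej (l * (t - u)))
      (Eventually.of_forall fun ε => Measurable.aestronglyMeasurable ?_) ?_
      ((fej_int' hl u).const_mul B).integrableOn (ae_of_all _ fun t => ?_)
    · have := fej_cont.measurable
      fun_prop
    · filter_upwards [self_mem_nhdsWithin] with ε hε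
      filter_upwards [ae_restrict_mem measurableSet_Ioi] with t ht
      rw [Real.norm_eq_abs, abs_mul, abs_mul, Real.abs_exp, abs_of_nonneg (fej_nonneg _)]
      refine mul_le_mul_of_nonneg_right ((mul_le_of_le_one_right (abs_nonneg _) ?_).trans (hB t)) (fej_nonneg _)
      rw [Real.exp_le_one_iff, neg_mul, neg_nonpos]
      exact (mul_pos hε ht).le
    · have : Continuous fun ε : ℝ => f t * Real.exp (-ε * t) * fej (l * (t - u)) := by fun_prop
      simpa using (this.tendsto 0).mono_left nhdsWithin_le_nhds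
  have hc : ContinuousOn (fun p : ℝ × ℝ => (1 - p.2) *
      (Complex.exp (Complex.I * (l * u * p.2 : ℝ)) * G (p.1 + Complex.I * (l * p.2 : ℝ))).re)
      (Ici 0 ×ˢ univ) := by
    refine ContinuousOn.mul (by fun_prop) (Complex.continuous_re.comp_continuousOn
      (ContinuousOn.mul (by fun_prop) (hG.comp (by fun_prop) fun p hp => ?_)))
    simpa using hp.1
  obtain ⟨M, hM⟩ := (isCompact_Icc.prod isCompact_Icc).exists_bound_of_continuousOn
    (hc.mono (prod_mono (Icc_subset_Ici_self : Icc (0 : ℝ) 1 ⊆ Ici 0) (subset_univ (Icc (0 : ℝ) 1))))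
  have T2 : Tendsto (fun ε : ℝ => ∫ y in Ioc (0 : ℝ) 1, (1 - y) *
        (Complex.exp (Complex.I * (l * u * y : ℝ)) * G (ε + Complex.I * (l * y : ℝ))).re) (𝓝[>] 0)
      (𝓝 (∫ y in Ioc (0 : ℝ) 1, (1 - y) *
        (Complex.exp (Complex.I * (l * u * y : ℝ)) * G (Complex.I * (l * y : ℝ))).re)) := by
    refine tendsto_integral_filter_of_dominated_convergence (fun _ => M) ?_ ?_ (by simp)
      (ae_of_all _ fun y => ?_)
    · filter_upwards [self_mem_nhdsWithin] with ε hε
      exact (hc.comp_continuous (f := fun y : ℝ => (ε, y)) (by fun_prop)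
        fun y => ⟨mem_Ici.2 (le_of_lt hε), trivial⟩).aestronglyMeasurable
    · filter_upwards [Ioc_mem_nhdsGT zero_lt_one] with ε hε
      filter_upwards [ae_restrict_mem measurableSet_Ioc] with y hy
      exact hM (ε, y) ⟨⟨hε.1.le, hε.2⟩, ⟨hy.1.le, hy.2⟩⟩
    · have := (hc.comp (f := fun ε : ℝ => (ε, y)) (s := Ici 0) (by fun_prop)
        fun ε hε => ⟨hε, trivial⟩) 0 self_mem_Ici
      simpa [Function.comp_def] using this.tendsto.mono_left (nhdsWithin_mono _ Ioi_subset_Ici_self)
  refine tendsto_nhds_unique T1 (T2.congr' ?_)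
  filter_upwards [self_mem_nhdsWithin] with ε hε
  exact (key_eps hf hB hL l u hε).symm

theorem key (hf : Measurable f) (hB : ∀ t, |f t| ≤ B) (hG : ContinuousOn G {z | 0 ≤ z.re})
    (hL : ∀ z : ℂ, 0 < z.re → ∫ t in Ioi (0 : ℝ), (f t : ℂ) * Complex.exp (-z * t) = G z)
    {l : ℝ} (hl : 0 < l) :
    Tendsto (fun u => ∫ t in Ioi (0 : ℝ), f t * fej (l * (t - u))) atTop (𝓝 0) := by
  have h1 := Real.tendsto_integral_exp_smul_cocompact
    ((Ioc (0 : ℝ) 1).indicator fun y : ℝ => ((1 - y : ℝ) : ℂ) * G (Complex.I * (l * y : ℝ)))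
  have h2 : Tendsto (fun u : ℝ => -(l / (2 * Real.pi) * u)) atTop (cocompact ℝ) :=
    (tendsto_neg_atTop_atBot.comp (tendsto_id.const_mul_atTop (by positivity))).mono_right atBot_le_cocompact
  have h3 := (Complex.continuous_re.tendsto 0).comp (h1.comp h2)
  refine h3.congr fun u => ?_
  have hc : Continuous fun y : ℝ => G (Complex.I * (l * y : ℝ)) :=
    hG.comp_continuous (by fun_prop) fun y => by simp
  simp only [Function.comp_def]
  rw [key_lim hf hB hG hL hl.ne' u]
  have e0 : ∀ (w : ℝ → Circle) (H : ℝ → ℂ) (y : ℝ), w y • (Ioc (0 : ℝ) 1).indicator H y =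
      (Ioc (0 : ℝ) 1).indicator (fun y => w y • H y) y := fun w H y => by
    by_cases hy : y ∈ Ioc (0 : ℝ) 1 <;> simp [hy]
  rw [integral_congr_ae (ae_of_all _ (e0 (fun y => Real.fourierChar (-(y * -(l / (2 * Real.pi) * u)))) _))]
  rw [integral_indicator measurableSet_Ioc, ← Complex.reCLM_apply, ← Complex.reCLM.integral_comp_comm]
  · refine integral_congr_ae (ae_of_all _ fun y => ?_)
    simp only [Complex.reCLM_apply, Circle.smul_def, Real.fourierChar_apply, smul_eq_mul]
    rw [mul_left_comm, Complex.re_ofReal_mul]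
    congr 4
    have := Real.pi_pos
    push_cast
    field_simp
  · refine (Continuous.integrableOn_Icc ?_).mono_set Ioc_subset_Icc_self
    simp only [Circle.smul_def, Real.fourierChar_apply, smul_eq_mul]
    exact Continuous.mul (by fun_prop) (Continuous.mul (by fun_prop) hc)

theorem tauber (hf : Measurable f) (hB : ∀ t, |f t| ≤ B)
    (H : ∀ l : ℝ, 0 < l → Tendsto (fun u => ∫ t in Ioi (0 : ℝ), f t * fej (l * (t - u))) atTop (𝓝 0))
    {η δ : ℝ} (hη : 0 < η) (hδ : 0 < δ) : ∀ᶠ u in atTop, ∃ t ∈ Icc (u - δ) (u + δ), f t < η := by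
  have hB0 : 0 ≤ B := (abs_nonneg _).trans (hB 0)
  have hm : ∀ R : ℝ, MeasurableSet {s : ℝ | R < |s|} := fun R =>
    (isOpen_lt continuous_const continuous_abs).measurableSet
  have T : Tendsto (fun R : ℝ => ∫ s, {s : ℝ | R < |s|}.indicator fej s) atTop (𝓝 (∫ _ : ℝ, (0 : ℝ))) := by
    refine tendsto_integral_filter_of_dominated_convergence fej
      (Eventually.of_forall fun R => (fej_int.indicator (hm R)).aestronglyMeasurable)
      (Eventually.of_forall fun R => ae_of_all _ fun s => ?_) fej_int (ae_of_all _ fun s => ?_)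
    · exact (norm_indicator_le_norm_self _ _).trans (Real.norm_of_nonneg (fej_nonneg s)).le
    · refine tendsto_const_nhds.congr' ?_
      filter_upwards [eventually_ge_atTop |s|] with R hR
      rw [indicator_of_notMem (by simpa using hR)]
  rw [integral_zero] at T
  have T' := (T.const_mul (η + B)).const_sub (η * ∫ t, fej t)
  rw [mul_zero, sub_zero] at T'
  obtain ⟨R, hR, hR0⟩ := ((T'.eventually (lt_mem_nhds (mul_pos hη fej_pos))).and (eventually_gt_atTop 0)).exists
  have hl : 0 < R / δ := div_pos hR0 hδ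
  set K : ℝ → ℝ := fun s => η * fej s - (η + B) * {s : ℝ | R < |s|}.indicator fej s with hK
  have hKi : Integrable K := (fej_int.const_mul η).sub ((fej_int.indicator (hm R)).const_mul _)
  have hKp : 0 < |(R / δ)⁻¹| • ∫ s, K s := by
    rw [hK, integral_sub (fej_int.const_mul η) ((fej_int.indicator (hm R)).const_mul _), integral_const_mul,
      integral_const_mul]
    exact smul_pos (abs_pos.2 (inv_ne_zero hl.ne')) hR
  filter_upwards [(H _ hl).eventually (gt_mem_nhds hKp), eventually_gt_atTop δ] with u hu huδ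
  by_contra hc
  push Not at hc
  refine absurd hu (not_lt.2 ?_)
  rw [← Measure.integral_comp_mul_left, ← integral_sub_right_eq_self (fun t => K (R / δ * t)) u,
    ← integral_indicator measurableSet_Ioi]
  refine integral_mono ((hKi.comp_mul_left' hl.ne').comp_sub_right u)
    (((fej_int' hl.ne' u).bdd_mul (c := B) hf.aestronglyMeasurable (ae_of_all _ hB)).indicator
      measurableSet_Ioi) fun t => ?_
  have h0 := fej_nonneg (R / δ * (t - u))
  simp only [hK]
  by_cases ht : R < |R / δ * (t - u)|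
  · rw [indicator_of_mem (show R / δ * (t - u) ∈ {s : ℝ | R < |s|} from ht)]
    by_cases ht0 : t ∈ Ioi (0 : ℝ)
    · rw [indicator_of_mem ht0]
      nlinarith [(abs_le.1 (hB t)).1]
    · rw [indicator_of_notMem ht0]
      nlinarith
  · rw [indicator_of_notMem (show R / δ * (t - u) ∉ {s : ℝ | R < |s|} from ht)]
    rw [not_lt, abs_mul, abs_of_pos hl, div_mul_eq_mul_div, div_le_iff₀ hδ] at ht
    have h1 := abs_le.1 (le_of_mul_le_mul_left ht hR0)
    rw [indicator_of_mem (show t ∈ Ioi (0 : ℝ) by rw [mem_Ioi]; linarith [h1.1])]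
    have := hc t ⟨by linarith [h1.1], by linarith [h1.2]⟩
    nlinarith

end key

theorem laplace {a : ℕ → ℝ} (ha : ∀ n, 0 ≤ a n) {C : ℝ} (hC : ∀ n : ℕ, ∑ k ∈ Finset.Icc 1 n, a k ≤ C * n)
    {s : ℂ} (hs : 1 < s.re) :
    LSeries (fun n => a n) s =
      s * ∫ t in Ioi (0 : ℝ), ((∑ k ∈ Finset.Icc 1 ⌊Real.exp t⌋₊, a k : ℝ) : ℂ) * Complex.exp (-s * t) := by
  rw [LSeries_eq_mul_integral_of_nonneg a zero_le_one hs ?_ ha]
  · congr 1
    have := integral_image_eq_integral_abs_deriv_smul (s := Ioi (0 : ℝ)) (f := Real.exp) (f' := Real.exp)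
      measurableSet_Ioi (fun x _ => (Real.hasDerivAt_exp x).hasDerivWithinAt) Real.exp_injective.injOn
      fun t : ℝ => (∑ k ∈ Finset.Icc 1 ⌊t⌋₊, (a k : ℂ)) * (t : ℂ) ^ (-(s + 1))
    rw [Real.image_exp_Ioi, Real.exp_zero] at this
    rw [this]
    refine integral_congr_ae (ae_of_all _ fun t => ?_)
    simp only
    rw [Real.abs_exp, Complex.cpow_def_of_ne_zero (by exact_mod_cast (Real.exp_pos t).ne'),
      ← Complex.ofReal_log (Real.exp_pos t).le, Real.log_exp, Complex.real_smul, Complex.ofReal_exp,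
      mul_left_comm, ← Complex.exp_add, Complex.ofReal_sum]
    congr 2
    ring
  · refine Asymptotics.IsBigO.of_bound C (Eventually.of_forall fun n => ?_)
    rw [Real.norm_of_nonneg (Finset.sum_nonneg fun k _ => ha k), Real.rpow_one, Real.norm_natCast]
    exact hC n

/-- the Wiener–Ikehara theorem -/
theorem wiener_ikehara {a : ℕ → ℝ} (ha : ∀ n, 0 ≤ a n) {C : ℝ}
    (hC : ∀ n : ℕ, ∑ k ∈ Finset.Icc 1 n, a k ≤ C * n) {c : ℝ} {G : ℂ → ℂ}
    (hG : ContinuousOn G {s | 1 ≤ s.re})
    (hL : ∀ s : ℂ, 1 < s.re → G s = LSeries (fun n => a n) s - c / (s - 1)) :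
    Tendsto (fun x : ℝ => (∑ k ∈ Finset.Icc 1 ⌊x⌋₊, a k) / x) atTop (𝓝 c) := by
  set A : ℝ → ℝ := fun x => ∑ k ∈ Finset.Icc 1 ⌊x⌋₊, a k with hA
  have hA0 : ∀ x, 0 ≤ A x := fun x => Finset.sum_nonneg fun k _ => ha k
  have hAm : Monotone A := fun x y h =>
    Finset.sum_le_sum_of_subset_of_nonneg (Finset.Icc_subset_Icc_right (Nat.floor_mono h)) fun k _ _ => ha k
  have hC0 : 0 ≤ C := by simpa using (ha 1).trans (by simpa using hC 1)
  set g : ℝ → ℝ := fun t => A (Real.exp t) * Real.exp (-t) with hg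
  have hgm : Measurable g := by
    have := hAm.measurable
    fun_prop
  have hg0 : ∀ t, 0 ≤ g t := fun t => mul_nonneg (hA0 _) (Real.exp_pos _).le
  have hgC : ∀ t, g t ≤ C := fun t => by
    simp only [hg]
    rw [Real.exp_neg, ← div_eq_mul_inv, div_le_iff₀ (Real.exp_pos t)]
    exact (hC _).trans (mul_le_mul_of_nonneg_left (Nat.floor_le (Real.exp_pos t).le) hC0)
  have hgB : ∀ t, |g t| ≤ C := fun t => by rw [abs_of_nonneg (hg0 t)]; exact hgC t
  have hAg : ∀ t, A (Real.exp t) = g t * Real.exp t := fun t => by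
    simp only [hg]; rw [mul_assoc, ← Real.exp_add, neg_add_cancel, Real.exp_zero, mul_one]
  have hfm : Measurable fun t => g t - c := hgm.sub_const c
  have hfB : ∀ t, |g t - c| ≤ C + |c| := fun t => (abs_sub _ _).trans (by linarith [hgB t])
  have H : ∀ l : ℝ, 0 < l →
      Tendsto (fun u => ∫ t in Ioi (0 : ℝ), (g t - c) * fej (l * (t - u))) atTop (𝓝 0) := by
    intro l hl
    refine key (G := fun z => (G (z + 1) - c) / (z + 1)) hfm hfB ?_ (fun z hz => ?_) hl
    · refine ContinuousOn.div (ContinuousOn.sub (hG.comp (by fun_prop) fun z hz => ?_) continuousOn_const)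
        (by fun_prop) fun z hz h0 => ?_
      · simpa using hz
      · have := congrArg Complex.re h0
        simp only [Complex.add_re, Complex.one_re, Complex.zero_re] at this
        linarith [show 0 ≤ z.re from hz]
    · have hz1 : 1 < (z + 1).re := by simpa using hz
      have hz0 : z ≠ 0 := fun h => by simp [h] at hz
      have hz2 : z + 1 ≠ 0 := fun h => by simp [h] at hz1; linarith
      have h1 : ∀ t : ℝ, ((g t - c : ℝ) : ℂ) * Complex.exp (-z * t) =
          (g t : ℂ) * Complex.exp (-z * t) - c * Complex.exp (-z * t) := fun t => by push_cast; ring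
      have h2 : ∀ t : ℝ, (A (Real.exp t) : ℂ) * Complex.exp (-(z + 1) * t) = (g t : ℂ) * Complex.exp (-z * t) :=
        fun t => by
          rw [hAg, Complex.ofReal_mul, Complex.ofReal_exp, mul_assoc, ← Complex.exp_add]
          congr 2; ring
      have h3 := laplace ha hC hz1
      change _ = _ * ∫ t in Ioi (0 : ℝ), (A (Real.exp t) : ℂ) * _ at h3
      simp_rw [h2] at h3
      simp_rw [h1]
      rw [integral_sub (lap_int hgm hgB hz)
        ((integrableOn_exp_mul_complex_Ioi (a := -z) (by simpa using hz) 0).const_mul _), integral_const_mul,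
        integral_exp_mul_complex_Ioi (by simpa using hz), hL _ hz1, h3]
      simp only [Complex.ofReal_zero, mul_zero, Complex.exp_zero, add_sub_cancel_right]
      field_simp
      ring
  have H' : ∀ l : ℝ, 0 < l →
      Tendsto (fun u => ∫ t in Ioi (0 : ℝ), -(g t - c) * fej (l * (t - u))) atTop (𝓝 0) := by
    intro l hl
    simpa only [neg_mul, integral_neg, neg_zero] using (H l hl).neg
  suffices T : Tendsto g atTop (𝓝 c) by
    refine (T.comp Real.tendsto_log_atTop).congr' ?_
    filter_upwards [eventually_gt_atTop 0] with x hx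
    simp only [Function.comp, hg]
    rw [Real.exp_neg, Real.exp_log hx, div_eq_mul_inv]
  rw [tendsto_order]
  constructor
  · intro b hb
    have h1 : Tendsto (fun δ : ℝ => (c - δ) * Real.exp (-(2 * δ))) (𝓝[>] 0) (𝓝 c) := by
      have : Continuous fun δ : ℝ => (c - δ) * Real.exp (-(2 * δ)) := by fun_prop
      simpa using (this.tendsto 0).mono_left nhdsWithin_le_nhds
    obtain ⟨δ, h2, hδ⟩ := ((h1.eventually (lt_mem_nhds hb)).and self_mem_nhdsWithin).exists
    have h3 := tauber (f := fun t => -(g t - c)) hfm.neg (fun t => by rw [abs_neg]; exact hfB t) H' hδ hδ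
    filter_upwards [(tendsto_atTop_add_const_right _ (-δ) tendsto_id).eventually h3] with u ⟨t, ht, h4⟩
    simp only [id, mem_Icc] at ht h4
    have h5 : g t * Real.exp t ≤ g u * Real.exp u := by
      rw [← hAg, ← hAg]; exact hAm (Real.exp_le_exp.2 (by linarith [ht.2]))
    have h6 : Real.exp (-(2 * δ)) * Real.exp u ≤ Real.exp t := by
      rw [← Real.exp_add]; exact Real.exp_le_exp.2 (by linarith [ht.1])
    have h7 : g t * Real.exp (-(2 * δ)) ≤ g u := by
      refine le_of_mul_le_mul_right (le_trans ?_ h5) (Real.exp_pos u)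
      rw [mul_assoc]; exact mul_le_mul_of_nonneg_left h6 (hg0 t)
    exact h2.trans_le (le_trans (mul_le_mul_of_nonneg_right (by linarith) (Real.exp_pos _).le) h7)
  · intro b hb
    have h1 : Tendsto (fun δ : ℝ => (c + δ) * Real.exp (2 * δ)) (𝓝[>] 0) (𝓝 c) := by
      have : Continuous fun δ : ℝ => (c + δ) * Real.exp (2 * δ) := by fun_prop
      simpa using (this.tendsto 0).mono_left nhdsWithin_le_nhds
    obtain ⟨δ, h2, hδ⟩ := ((h1.eventually (gt_mem_nhds hb)).and self_mem_nhdsWithin).exists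
    have h3 := tauber hfm hfB H hδ hδ
    filter_upwards [(tendsto_atTop_add_const_right _ δ tendsto_id).eventually h3] with u ⟨t, ht, h4⟩
    simp only [id, mem_Icc] at ht h4
    have h5 : g u * Real.exp u ≤ g t * Real.exp t := by
      rw [← hAg, ← hAg]; exact hAm (Real.exp_le_exp.2 (by linarith [ht.1]))
    have h6 : Real.exp t ≤ Real.exp (2 * δ) * Real.exp u := by
      rw [← Real.exp_add]; exact Real.exp_le_exp.2 (by linarith [ht.2])
    have h7 : g u ≤ g t * Real.exp (2 * δ) := by
      refine le_of_mul_le_mul_right (le_trans h5 ?_) (Real.exp_pos u)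
      rw [mul_assoc (g t)]; exact mul_le_mul_of_nonneg_left h6 (hg0 t)
    exact (h7.trans (mul_le_mul_of_nonneg_right (by linarith) (Real.exp_pos _).le)).trans_lt h2

open ArithmeticFunction in
theorem sum_Icc_vonMangoldt (x : ℝ) : ∑ k ∈ Finset.Icc 1 ⌊x⌋₊, vonMangoldt k = Chebyshev.psi x := by
  rw [Chebyshev.psi]; rfl

open ArithmeticFunction in
/-- the prime number theorem in arithmetic progressions, for the von Mangoldt function -/
theorem psi_ap {q : ℕ} [NeZero q] {a : ZMod q} (ha : IsUnit a) :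
    Tendsto (fun x : ℝ => (∑ k ∈ Finset.Icc 1 ⌊x⌋₊, vonMangoldt.residueClass a k) / x) atTop
      (𝓝 ((q.totient : ℝ)⁻¹)) := by
  refine wiener_ikehara (vonMangoldt.residueClass_nonneg a) (C := Real.log 4 + 4) (fun n => ?_)
    (vonMangoldt.continuousOn_LFunctionResidueClassAux a) fun s hs => ?_
  · refine (Finset.sum_le_sum fun k _ => vonMangoldt.residueClass_le a k).trans ?_
    have := sum_Icc_vonMangoldt n
    rw [Nat.floor_natCast] at this
    rw [this]
    exact Chebyshev.psi_le_const_mul_self (Nat.cast_nonneg n)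
  · rw [vonMangoldt.eqOn_LFunctionResidueClassAux ha hs]
    push_cast
    rfl

/-- the prime number theorem for `ψ` -/
theorem psi_tendsto : Tendsto (fun x : ℝ => Chebyshev.psi x / x) atTop (𝓝 1) := by
  have h := psi_ap (q := 1) (a := 1) isUnit_one
  rw [Nat.totient_one, Nat.cast_one, inv_one] at h
  refine h.congr fun x => ?_
  rw [← sum_Icc_vonMangoldt]
  congr 1
  exact Finset.sum_congr rfl fun k _ => indicator_of_mem (s := {n : ℕ | (n : ZMod 1) = 1}) (Subsingleton.elim (α := ZMod 1) _ _) _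

theorem psi_sub_theta_tendsto : Tendsto (fun x : ℝ => (Chebyshev.psi x - Chebyshev.theta x) / x) atTop (𝓝 0) := by
  refine (Chebyshev.isBigO_psi_sub_theta_sqrt.trans_isLittleO (k := fun x : ℝ => x) ?_).tendsto_div_nhds_zero
  rw [Asymptotics.isLittleO_iff_tendsto' (by filter_upwards [eventually_gt_atTop 0] with x hx h; exact absurd h hx.ne')]
  simp_rw [Real.sqrt_div_self]
  exact tendsto_inv_atTop_zero.comp Real.tendsto_sqrt_atTop

/-- the prime number theorem for `θ` -/
theorem theta_tendsto : Tendsto (fun x : ℝ => Chebyshev.theta x / x) atTop (𝓝 1) := by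
  have := psi_tendsto.sub psi_sub_theta_tendsto
  rw [sub_zero] at this
  exact this.congr fun x => by ring

open ArithmeticFunction in
/-- the prime number theorem in arithmetic progressions -/
theorem theta_ap {q : ℕ} [NeZero q] {a : ZMod q} (ha : IsUnit a) :
    Tendsto (fun x : ℝ => (∑ p ∈ (Finset.Ioc 0 ⌊x⌋₊).filter (fun p : ℕ => p.Prime ∧ (p : ZMod q) = a), Real.log p) / x) atTop
      (𝓝 ((q.totient : ℝ)⁻¹)) := by
  have h1 := (psi_ap ha).sub psi_sub_theta_tendsto
  rw [sub_zero] at h1
  have e : ∀ x : ℝ, ∑ p ∈ (Finset.Ioc 0 ⌊x⌋₊).filter (fun p : ℕ => p.Prime ∧ (p : ZMod q) = a), Real.log p =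
      ∑ k ∈ Finset.Ioc 0 ⌊x⌋₊, if k.Prime then vonMangoldt.residueClass a k else 0 := by
    intro x
    rw [Finset.sum_filter]
    refine Finset.sum_congr rfl fun k _ => ?_
    by_cases h2 : k.Prime <;> by_cases h3 : (k : ZMod q) = a <;>
      simp [h2, h3, vonMangoldt.residueClass, vonMangoldt_apply_prime]
  refine tendsto_of_tendsto_of_tendsto_of_le_of_le' h1 (psi_ap ha) ?_ ?_
  · filter_upwards [eventually_gt_atTop 0] with x hx
    rw [← sub_div, e, Chebyshev.psi_sub_theta_eq_sum_not_prime, Finset.sum_filter]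
    refine div_le_div_of_nonneg_right ?_ hx.le
    rw [sub_le_iff_le_add, ← Finset.sum_add_distrib]
    refine Finset.sum_le_sum (s := Finset.Ioc 0 ⌊x⌋₊) fun k _ => ?_
    by_cases h2 : k.Prime
    · simp [h2]
    · simpa [h2] using vonMangoldt.residueClass_le a k
  · filter_upwards [eventually_gt_atTop 0] with x hx
    rw [e]
    refine div_le_div_of_nonneg_right (Finset.sum_le_sum (s := Finset.Ioc 0 ⌊x⌋₊) fun k _ => ?_) hx.le
    split_ifs
    · exact le_rfl
    · exact vonMangoldt.residueClass_nonneg a k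

end Crest.Agent.PNT
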